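import Vale.Agent.H1.LT.Defs
import Vale.Agent.H1.LT.Primal
import Vale.Agent.H1.LT.Lower
import Vale.Agent.H1.LT.Upper

/-!
The sharp one-dimensional Lieb-Thirring inequality at `γ = 1`, for scalar and matrix potentials,
and explicit two-sided bounds for `1 < γ < 3/2`.
-/

namespace Vale.Agent.Results.P371.GammaOneAndUpTo

open Vale.LT

theorem result :
    (∀ m : ℕ, 1 ≤ m → LTconst 1 m = ENNReal.ofReal (Lone 1)) ∧
      Lone 1 = 4 / (3 * √3 * Real.pi) ∧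
      ∀ γ : ℝ, 1 < γ → γ < 3 / 2 → ∀ m : ℕ, 1 ≤ m →
        ENNReal.ofReal (Lone γ) ≤ LTconst γ m ∧
        LTconst γ m ≤ ENNReal.ofReal
          ((2 * γ / (2 * γ + 1)) * (3 : ℝ) ^ (γ - 3 / 2) * (16 : ℝ) ^ (1 - γ) *
            (Real.cos (Real.pi * (γ - 1)) / Real.pi) *
            (Real.Gamma (3 / 2 - γ) * Real.Gamma (2 * γ - 1) / Real.Gamma (γ + 1 / 2))) := by
  refine ⟨fun m hm => le_antisymm ?_ (Lone_le_LTconst 1 (by norm_num) m hm), Lone_one, ?_⟩
  · rw [Lone_one]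
    exact LTconst_one_le m
  · intro γ h1 h2 m hm
    exact ⟨Lone_le_LTconst γ (by linarith) m hm, LTconst_le_Uconst γ h1 h2 m⟩

end Vale.Agent.Results.P371.GammaOneAndUpTo
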