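import Vale.Agent.H1.LT.Defs
import Vale.Agent.H1.LT.Primal
import Vale.Agent.H1.LT.Lower

/-!
The sharp one-dimensional Lieb-Thirring inequality at `γ = 1`, for scalar and matrix potentials:
`L_1(m) = L_1(1) = L^{(1)}_1 = 4 / (3 √3 π)` for every `m ≥ 1`.
-/

namespace Vale.Agent.Results.P371.GammaOneSharp

open Vale.LT

theorem result :
    (∀ m : ℕ, 1 ≤ m → LTconst 1 m = ENNReal.ofReal (Lone 1)) ∧
      Lone 1 = 4 / (3 * √3 * Real.pi) := by
  refine ⟨fun m hm => le_antisymm ?_ (Lone_le_LTconst 1 (by norm_num) m hm), Lone_one⟩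
  rw [Lone_one]
  exact LTconst_one_le m

end Vale.Agent.Results.P371.GammaOneSharp
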