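import Vale.Agent.H1.LT.Defs
import Vale.Agent.H1.LT2.FEnd

/-!
The one-dimensional Lieb-Thirring conjecture: for `1/2 < γ < 3/2` and every `m ≥ 1` the sharp
Lieb-Thirring constant for `m × m` matrix potentials is the one-bound-state constant.
-/

namespace Vale.Agent.Results.P371.LiebThirringConjecture

open Vale.LT

theorem result :
    ∀ γ : ℝ, 1 / 2 < γ → γ < 3 / 2 → ∀ m : ℕ, 1 ≤ m →
      LTconst γ m = ENNReal.ofReal (Lone γ) :=
  fun γ h1 h2 m hm => Vale.LT2.F.LTconst_eq_Lone γ h1 h2 m hm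

end Vale.Agent.Results.P371.LiebThirringConjecture
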